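import Vale.Agent.P246.R2.H429.Defs4
import Vale.Agent.P246.T.A1

/-! # P246, ROW TW5: the algebraic complex of the covering of the wedge -/

set_option linter.all false

namespace Vale.Agent.P246.H534

open Vale.Agent.P246 Vale.Agent.P246.T Vale.Agent.P246.H429 Topology Set CategoryTheory

section Push

variable {G E F : Type} [Group G] [TopologicalSpace E] [MulAction G E] [ContinuousConstSMul G E]
  [TopologicalSpace F] [MulAction G F] [ContinuousConstSMul G F]

/-- push forward along an equivariant map, as a linear map -/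
noncomputable def pu (ι : C(E, F)) (hι : ∀ (g : G) (e : E), ι (g • e) = g • ι e) (n : ℕ) :
    SC G n E →ₗ[ZG G] SC G n F where
  toFun c := SC.mk G (push ι n c.un)
  map_add' a b := map_add (push ι n) a.un b.un
  map_smul' r c := by
    apply SC.un_inj
    rw [RingHom.id_apply, SC.un_smul, SC.un_mk, SC.un_smul, SC.un_mk, Finsupp.sum, Finsupp.sum,
      map_sum]
    refine Finset.sum_congr rfl fun g _ => ?_
    rw [map_smul, ← push_comp, ← push_comp]
    have : ι.comp (gm g) = (gm g).comp ι := ContinuousMap.ext fun e => hι g e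
    rw [this]

variable {ι : C(E, F)} (hι : ∀ (g : G) (e : E), ι (g • e) = g • ι e)

theorem pu_un (n : ℕ) (c : SC G n E) : (pu ι hι n c).un = push ι n c.un := rfl

theorem pu_d (n : ℕ) (c : SC G (n + 1) E) :
    SC.d G n F (pu ι hι (n + 1) c) = pu ι hι n (SC.d G n E c) := push_bd ι n c.un

theorem pu_inj (hi : Function.Injective ι) (n : ℕ) : Function.Injective (pu ι hι n) := by
  have h : Function.Injective (fun σ : C(Dl (n + 1), E) => ι.comp σ) := fun σ τ h =>
    ContinuousMap.ext fun x => hi (DFunLike.congr_fun h x)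
  exact Finsupp.mapDomain_injective h

theorem exists_pu (he : IsEmbedding ι) {n : ℕ} {c : Ch n F} (hc : c ∈ T.Con (range ι) n) :
    ∃ b : Ch n E, push ι n b = c := by
  have hle : T.Con (range ι) n ≤ LinearMap.range (push ι n) := by
    rw [T.Con, Finsupp.supported_eq_span_single, Submodule.span_le]
    rintro _ ⟨σ, hσ, rfl⟩
    choose τ hτ using hσ
    have hτc : Continuous τ := by
      rw [he.isInducing.continuous_iff]
      have : ι ∘ τ = σ := funext hτ
      rw [this]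
      exact σ.continuous
    refine ⟨Finsupp.single ⟨τ, hτc⟩ 1, ?_⟩
    rw [push_single]
    congr 1
    exact ContinuousMap.ext hτ
  exact hle hc

theorem dcyc_pu (hi : Function.Injective ι) (n : ℕ) (c : SC G n E) :
    DCyc (fun n => SC G n F) (fun n => SC.d G n F) n (pu ι hι n c) ↔
      DCyc (fun n => SC G n E) (fun n => SC.d G n E) n c := by
  cases n with
  | zero => exact Iff.rfl
  | succ n =>
    change SC.d G n F (pu ι hι (n + 1) c) = 0 ↔ SC.d G n E c = 0
    rw [pu_d]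
    exact map_eq_zero_iff _ (pu_inj hι hi n)

/-- the transported model -/
theorem model {W : Type} [TopologicalSpace W] [T2Space W] {q : C(F, W)}
    (hq : IsQuotientCoveringMap q G) (C : Set W) (he : IsEmbedding ι) (hr : range ι = q ⁻¹' C)
    {P : ∀ n, Submodule (ZG G) (SC G n E)}
    (hP : IsFinModel (fun n => SC G n E) (fun n => SC.d G n E) (fun _ => ⊤) P) :
    IsFinModel (fun n => SC G n F) (fun n => SC.d G n F) (Step.SA hq C)
      (fun n => (P n).map (pu ι hι n)) := by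
  have hi := he.injective
  have hlift : ∀ n (x : SC G n F), x ∈ Step.SA hq C n → ∃ b : SC G n E, pu ι hι n b = x := by
    intro n x hx
    have hx' : x.un ∈ T.Con (range ι) n := by
      rw [hr]
      exact hx
    exact exists_pu he hx'
  have hmem : ∀ n (b : SC G n E), pu ι hι n b ∈ Step.SA hq C n := by
    intro n b
    change push ι n b.un ∈ T.Con (q ⁻¹' C) n
    refine push_mem (A := univ) (fun x _ => ?_) (A1x.mem_univ_con _)
    rw [← hr]
    exact ⟨x, rfl⟩
  refine { le := ?_, d_mem := ?_, inj := ?_, surj := ?_, free := ?_, fin := ?_, bdd := ?_ }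
  · rintro n _ ⟨c, -, rfl⟩
    exact hmem n c
  · rintro n _ ⟨c, hc, rfl⟩
    exact ⟨SC.d G n E c, hP.d_mem n c hc, (pu_d hι n c).symm⟩
  · rintro n _ ⟨c, hc, rfl⟩ hcyc ⟨y, hy, hyc⟩
    obtain ⟨b, rfl⟩ := hlift (n + 1) y hy
    have h1 : SC.d G n E b = c := pu_inj hι hi n ((pu_d hι n b).symm.trans hyc)
    obtain ⟨y', hy', h⟩ := hP.inj n c hc ((dcyc_pu hι hi n c).1 hcyc) ⟨b, trivial, h1⟩
    have h' : SC.d G n E y' = c := h
    exact ⟨pu ι hι (n + 1) y', ⟨y', hy', rfl⟩, (pu_d hι n y').trans (congrArg _ h')⟩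
  · intro n x hx hcyc
    obtain ⟨b, rfl⟩ := hlift n x hx
    obtain ⟨y, hy, hyc, z, _, h⟩ := hP.surj n b trivial ((dcyc_pu hι hi n b).1 hcyc)
    have h' : b = y + SC.d G n E z := h
    refine ⟨pu ι hι n y, ⟨y, hy, rfl⟩, (dcyc_pu hι hi n y).2 hyc, pu ι hι (n + 1) z,
      hmem (n + 1) z, ?_⟩
    change pu ι hι n b = pu ι hι n y + SC.d G n F (pu ι hι (n + 1) z)
    rw [pu_d, ← map_add, ← h']
  · intro n
    have := hP.free n
    exact Module.Free.of_equiv ((P n).equivMapOfInjective (pu ι hι n) (pu_inj hι hi n))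
  · intro n
    have := hP.fin n
    exact Module.Finite.equiv ((P n).equivMapOfInjective (pu ι hι n) (pu_inj hι hi n))
  · obtain ⟨N, hN⟩ := hP.bdd
    refine ⟨N, fun n hn => ?_⟩
    rw [hN n hn, Submodule.map_bot]

end Push

/-! ## Sums -/

theorem sup_equiv {R M A : Type} [Ring R] [AddCommGroup M] [Module R M] [AddCommGroup A]
    [Module R A] (f : A →ₗ[R] M) (hf : Function.Injective f) (Z Q : Submodule R M)
    (hQ : Q = LinearMap.range f ⊔ Z) (hd : Disjoint (LinearMap.range f) Z) :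
    ∃ e : (A × Z) ≃ₗ[R] Q, ∀ a, (e (a, 0)).1 = f a := by
  subst hQ
  have hinj : Function.Injective (f.coprod Z.subtype) := by
    rw [← LinearMap.ker_eq_bot, LinearMap.ker_eq_bot']
    rintro ⟨a, z⟩ h
    rw [LinearMap.coprod_apply, Submodule.subtype_apply] at h
    have h1 : f a ∈ Z := by
      rw [eq_neg_of_add_eq_zero_left h]
      exact Z.neg_mem z.2
    have h2 : f a = 0 := Submodule.disjoint_def.1 hd _ ⟨a, rfl⟩ h1
    have h3 : a = 0 := hf (h2.trans (map_zero f).symm)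
    rw [h2, zero_add] at h
    rw [h3, show z = 0 from Subtype.ext h]
    rfl
  have hran : LinearMap.range (f.coprod Z.subtype) = LinearMap.range f ⊔ Z := by
    rw [LinearMap.range_coprod, Submodule.range_subtype]
  refine ⟨(LinearEquiv.ofInjective _ hinj).trans (LinearEquiv.ofEq _ _ hran), fun a => ?_⟩
  change f.coprod Z.subtype (a, 0) = f a
  rw [LinearMap.coprod_apply, map_zero, add_zero]

/-- adding ranks -/
theorem add_equiv {R A B Q : Type} [Ring R] [AddCommGroup A] [Module R A] [AddCommGroup B]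
    [Module R B] [AddCommGroup Q] [Module R Q] (e : (A × B) ≃ₗ[R] Q) (m t : ℕ)
    (hA : Nonempty (A ≃ₗ[R] (Fin m → R))) (hB : Nonempty (B ≃ₗ[R] (Fin t → R))) :
    Nonempty (Q ≃ₗ[R] (Fin (m + t) → R)) := by
  obtain ⟨a⟩ := hA
  obtain ⟨b⟩ := hB
  exact ⟨e.symm.trans ((LinearEquiv.prodCongr a b).trans
    ((LinearEquiv.sumArrowLequivProdArrow (Fin m) (Fin t) R R).symm.trans
      (LinearEquiv.funCongrLeft R R finSumFinEquiv.symm)))⟩

/-- the Euler characteristic -/
theorem sum_eq (ν : ℕ → ℕ) (N t : ℕ) (hN : ∀ i, N ≤ i → ν i = 0) :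
    ∑ i ∈ Finset.range N, (-1 : ℤ) ^ i * ν i + t =
      ∑ i ∈ Finset.range (max N 3), (-1 : ℤ) ^ i * ((ν i + if i = 2 then t else 0 : ℕ) : ℤ) := by
  have h1 : ∑ i ∈ Finset.range N, (-1 : ℤ) ^ i * (ν i : ℤ) =
      ∑ i ∈ Finset.range (max N 3), (-1 : ℤ) ^ i * (ν i : ℤ) := by
    refine Finset.sum_subset (Finset.range_subset_range.2 (le_max_left _ _)) fun i _ hi => ?_
    rw [hN i (by simpa using hi)]
    simp
  have h2 : (t : ℤ) = ∑ i ∈ Finset.range (max N 3), (-1 : ℤ) ^ i *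
      ((if i = 2 then t else 0 : ℕ) : ℤ) := by
    rw [Finset.sum_eq_single 2]
    · simp
    · intro i _ hi
      simp [hi]
    · intro h
      exfalso
      apply h
      rw [Finset.mem_range]
      exact lt_of_lt_of_le (by norm_num) (le_max_right _ _)
  rw [h1, h2, ← Finset.sum_add_distrib]
  refine Finset.sum_congr rfl fun i _ => ?_
  push_cast
  ring

section Core

variable {G E F : Type} [Group G] [TopologicalSpace E] [SimplyConnectedSpace E]
  [MulAction G E] [ContinuousConstSMul G E]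
  [TopologicalSpace F] [SimplyConnectedSpace F] [MulAction G F] [ContinuousConstSMul G F]

/-- the data for the algebraic D(2) property -/
theorem data {ι : C(E, F)} (hι : ∀ (g : G) (e : E), ι (g • e) = g • ι e)
    (hi : Function.Injective ι)
    (hhigh : ∀ i, 2 ≤ i → ∀ c : Ch (i + 1) E, bd i c = 0 → ∃ b : Ch (i + 2) E, bd (i + 1) b = c)
    (h3 : H3G G E) (hfree : ∀ n, Module.Free (ZG G) (SC G n E))
    {P : ∀ n, Submodule (ZG G) (SC G n E)}
    (hP : IsFinModel (fun n => SC G n E) (fun n => SC.d G n E) (fun _ => ⊤) P)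
    {Q : ∀ n, Submodule (ZG G) (SC G n F)}
    (hQ : IsFinModel (fun n => SC G n F) (fun n => SC.d G n F) (fun _ => ⊤) Q)
    (hQn : ∀ n, n ≠ 2 → Q n = (P n).map (pu ι hι n))
    (Z : Submodule (ZG G) (SC G 2 F))
    (e2 : (P 2 × Z) ≃ₗ[ZG G] Q 2) (he2 : ∀ a, (e2 (a, 0)).1 = pu ι hι 2 a.1) :
    D2Data G (A1x.CC (S := fun n => SC G n F) (d := fun n => SC.d G n F) A1x.d_d
      hQ.toIsModel) where
  free := hQ.free
  finite := hQ.fin
  bounded := by
    obtain ⟨N, hN⟩ := hQ.bdd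
    refine ⟨N, fun i hi => ?_⟩
    have h := hN i hi
    change Subsingleton (Q i)
    rw [h]
    infer_instance
  homology_zero := by
    obtain ⟨ε, h1, h2, h3⟩ := A1x.hzero (fun c => A1h.aug_iff c) hQ.toIsModel
    refine ⟨ε, h1, h2, fun x => (h3 x).trans ?_⟩
    exact ⟨fun ⟨y, hy⟩ => ⟨y, (A1x.CC_d A1x.d_d hQ.toIsModel 0 y).trans hy⟩, fun ⟨y, hy⟩ =>
      ⟨y, (A1x.CC_d A1x.d_d hQ.toIsModel 0 y).symm.trans hy⟩⟩
  homology_one := by
    rw [exactAt_succ_iff]
    intro x hx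
    have hx' : A1x.dP hQ.toIsModel 0 x = 0 :=
      (A1x.CC_d A1x.d_d hQ.toIsModel 0 x).symm.trans hx
    have hx2 : SC.d G 0 F (x : Q 1).1 = 0 := congrArg Subtype.val hx'
    obtain ⟨b, hb⟩ := A1h.h_one (x : Q 1).1 hx2
    obtain ⟨y, hy, h⟩ := hQ.inj 1 (x : Q 1).1 (x : Q 1).2 hx2 ⟨SC.mk G b, trivial, hb⟩
    exact ⟨⟨y, hy⟩, (A1x.CC_d A1x.d_d hQ.toIsModel 1 ⟨y, hy⟩).trans (Subtype.ext h)⟩
  homology_high := by
    intro i hi'
    obtain ⟨j, rfl⟩ : ∃ j, i = j + 3 := ⟨i - 3, by omega⟩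
    rw [exactAt_succ_iff]
    intro x hx
    have hx' : A1x.dP hQ.toIsModel (j + 2) x = 0 :=
      (A1x.CC_d A1x.d_d hQ.toIsModel (j + 2) x).symm.trans hx
    have hx2 : SC.d G (j + 2) F (x : Q (j + 3)).1 = 0 := congrArg Subtype.val hx'
    have hxm : (x : Q (j + 3)).1 ∈ (P (j + 3)).map (pu ι hι (j + 3)) := by
      rw [← hQn (j + 3) (by omega)]
      exact (x : Q (j + 3)).2
    obtain ⟨c, hc, hcx⟩ := hxm
    have hc2 : SC.d G (j + 2) E c = 0 := by
      apply pu_inj hι hi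
      rw [← pu_d, hcx, hx2, map_zero]
    obtain ⟨b, hb⟩ := hhigh (j + 2) (by omega) c hc2
    obtain ⟨y, hy, h⟩ := hP.inj (j + 3) c hc hc2 ⟨SC.mk G b, trivial, hb⟩
    have h' : SC.d G (j + 3) E y = c := h
    have hyQ : pu ι hι (j + 4) y ∈ Q (j + 4) := by
      rw [hQn (j + 4) (by omega)]
      exact ⟨y, hy, rfl⟩
    refine ⟨⟨pu ι hι (j + 4) y, hyQ⟩,
      (A1x.CC_d A1x.d_d hQ.toIsModel (j + 3) ⟨pu ι hι (j + 4) y, hyQ⟩).trans (Subtype.ext ?_)⟩
    change SC.d G (j + 3) F (pu ι hι (j + 4) y) = (x : Q (j + 3)).1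
    rw [pu_d, h', hcx]
  cohomology_three := by
    intro M _ _ _ φ hφ
    have hfree' := hP.free
    have hQ3 : ∀ c : P 3, pu ι hι 3 c.1 ∈ Q 3 := by
      intro c
      rw [hQn 3 (by omega)]
      exact ⟨c.1, c.2, rfl⟩
    have hQ4 : ∀ c : P 4, pu ι hι 4 c.1 ∈ Q 4 := by
      intro c
      rw [hQn 4 (by omega)]
      exact ⟨c.1, c.2, rfl⟩
    let φ' : Q 3 →ₗ[ZG G] M := φ
    have hφ' : ∀ x : Q 4, φ' (A1x.dP hQ.toIsModel 3 x) = 0 := by
      intro x
      have h := hφ x
      rwa [show ((A1x.CC (S := fun n => SC G n F) (d := fun n => SC.d G n F) A1x.d_d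
          hQ.toIsModel).d 4 3) x = A1x.dP hQ.toIsModel 3 x from
            A1x.CC_d A1x.d_d hQ.toIsModel 3 x] at h
    let j3 : P 3 →ₗ[ZG G] Q 3 := ((pu ι hι 3).comp (P 3).subtype).codRestrict (Q 3) hQ3
    obtain ⟨ψ, hψ⟩ := A1x.coh (S := fun n => SC G n E) (d := fun n => SC.d G n E) A1x.d_d
      hP.toIsModel (fun n => inferInstance) (fun n => inferInstance) (M := M) 2
      (fun f hf => A1x.h3_lin h3 f hf) (φ'.comp j3) (fun x => by
        have h := hφ' ⟨pu ι hι 4 x.1, hQ4 x⟩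
        rw [LinearMap.comp_apply]
        convert h using 2
        apply Subtype.ext
        exact (pu_d hι 3 x.1).symm)
    refine ⟨ψ.comp ((LinearMap.fst (ZG G) (P 2) Z).comp e2.symm.toLinearMap), fun x => ?_⟩
    rw [show ((A1x.CC (S := fun n => SC G n F) (d := fun n => SC.d G n F) A1x.d_d
          hQ.toIsModel).d 3 2) x = A1x.dP hQ.toIsModel 2 x from
            A1x.CC_d A1x.d_d hQ.toIsModel 2 x]
    have hxm : (x : Q 3).1 ∈ (P 3).map (pu ι hι 3) := by
      rw [← hQn 3 (by omega)]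
      exact (x : Q 3).2
    obtain ⟨c, hc, hcx⟩ := hxm
    have h1 : (x : Q 3) = j3 ⟨c, hc⟩ := Subtype.ext hcx.symm
    have h2 := hψ ⟨c, hc⟩
    have h4 : e2 (A1x.dP hP.toIsModel 2 ⟨c, hc⟩, 0) = A1x.dP hQ.toIsModel 2 (x : Q 3) := by
      apply Subtype.ext
      rw [he2]
      change pu ι hι 2 (SC.d G 2 E c) = SC.d G 2 F (x : Q 3).1
      rw [← hcx, pu_d]
    change φ' (x : Q 3) = ψ (e2.symm (A1x.dP hQ.toIsModel 2 (x : Q 3))).1
    rw [← h4, LinearEquiv.symm_apply_apply, h1]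
    exact h2

end Core

/-- ROW TW5 -/
theorem specAlgW : SpecAlgW := by
  intro hCh G W E F _ _ _ _ _ _ _ _ _ _ _ q hq C t ι hC hS he hr hι hhigh h3 hfree P ν N hP hν hN
  have hM := model hι hq C he hr hP
  obtain ⟨Z, hZ, hZd, hdis, hQ⟩ := hCh G W F q hq C t hC hS _ hM
  have hi := he.injective
  have hQ2 : Function.update (fun n => (P n).map (pu ι hι n)) 2 ((P 2).map (pu ι hι 2) ⊔ Z) 2 =
      (P 2).map (pu ι hι 2) ⊔ Z := Function.update_self _ _ _
  have hQn : ∀ n, n ≠ 2 → Function.update (fun n => (P n).map (pu ι hι n)) 2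
      ((P 2).map (pu ι hι 2) ⊔ Z) n = (P n).map (pu ι hι n) := fun n hn =>
    Function.update_of_ne hn _ _
  generalize Function.update (fun n => (P n).map (pu ι hι n)) 2
      ((P 2).map (pu ι hι 2) ⊔ Z) = Q at hQ hQ2 hQn
  have hrg : LinearMap.range ((pu ι hι 2).comp (P 2).subtype) = (P 2).map (pu ι hι 2) := by
    rw [LinearMap.range_comp, Submodule.range_subtype]
  obtain ⟨e2, he2⟩ := sup_equiv ((pu ι hι 2).comp (P 2).subtype)
    ((pu_inj hι hi 2).comp Subtype.val_injective) Z (Q 2) (by rw [hrg, hQ2]) (by rw [hrg]; exact hdis)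
  have hdat := data hι hi hhigh h3 hfree hP hQ hQn Z e2 he2
  refine ⟨A1x.CC (S := fun n => SC G n F) (d := fun n => SC.d G n F) A1x.d_d hQ.toIsModel,
    hdat.isD2, ?_, ?_⟩
  · refine ⟨fun i => ν i + if i = 2 then t else 0, max N 3, fun i => ?_, fun i hi' => ?_,
      sum_eq ν N t hN⟩
    · by_cases h2 : i = 2
      · subst h2
        change Nonempty (Q 2 ≃ₗ[ZG G] _)
        exact add_equiv e2 (ν 2) t (hν 2) hZ
      · obtain ⟨a⟩ := hν i
        change Nonempty (Q i ≃ₗ[ZG G] (Fin (ν i + if i = 2 then t else 0) → ZG G))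
        rw [if_neg h2, add_zero]
        exact ⟨(LinearEquiv.ofEq _ _ (hQn i h2)).trans
          (((P i).equivMapOfInjective (pu ι hι i) (pu_inj hι hi i)).symm.trans a)⟩
    · have h1 : N ≤ i := le_trans (le_max_left _ _) hi'
      have h2 : 3 ≤ i := le_trans (le_max_right _ _) hi'
      change ν i + (if i = 2 then t else 0) = 0
      rw [hN i h1, if_neg (by omega)]
  · rintro Pr ⟨e⟩
    exact A1x.qi hQ.toIsModel Pr e

end Vale.Agent.P246.H534
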